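import Crest.Agent.R18.Defs

/-! Row 18 block END: the covering lemma. -/

set_option autoImplicit false
open scoped Pointwise

namespace Crest.Agent.R18

theorem end_index {N M : Type*} [Group N] [CommGroup M] {s : ℕ} (hs : s.Prime) (f : N →* M)
    (h1 : ∀ g, f g ^ s = 1) (hn : ∃ g, f g ≠ 1) :
    f.ker.index = s ∨ (f.ker.index : ℚ)⁻¹ ≤ ((s : ℚ) ^ 2)⁻¹ := by
  rcases eq_or_ne f.ker.index 0 with h0 | h0
  · right
    rw [h0]
    simp
  have := Fact.mk hs
  rw [Subgroup.index_ker] at h0 ⊢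
  have : Finite f.range := Nat.finite_of_card_ne_zero h0
  have hp : IsPGroup s f.range := fun ⟨x, g, hg⟩ => ⟨1, Subtype.ext (by simp [← hg, h1])⟩
  obtain ⟨k, hk⟩ := IsPGroup.iff_card.1 hp
  rw [hk]
  match k, hk with
  | 0, hk =>
    obtain ⟨g, hg⟩ := hn
    rw [pow_zero, Subgroup.card_eq_one] at hk
    exact absurd (Subgroup.mem_bot.1 (hk ▸ ⟨g, rfl⟩ : f g ∈ (⊥ : Subgroup M))) hg
  | 1, _ => exact Or.inl (pow_one s)
  | k + 2, _ =>
    right
    have : (1 : ℚ) ≤ s := by exact_mod_cast hs.one_le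
    push_cast
    exact inv_anti₀ (by positivity) (pow_le_pow_right₀ this (by omega))

theorem end_cover' {N M J X : Type*} [Group N] [CommGroup M] [Finite J] {s : ℕ} (hs : s.Prime) (v : N →* M)
    (u : J → N →* M) (hv : ∀ g, v g ^ s = 1) (hu : ∀ j g, u j g ^ s = 1) (hJ : 2 * Nat.card J < s)
    (hX : s ^ 2 < Nat.card X) (φ : X → N) (hφ : Function.Injective fun x => v (φ x))
    (h : ∀ g, ∃ j, ∃ a : ℕ, u j g = v g ^ a) : ∃ j, ∃ a : ℕ, ∀ g, u j g = v g ^ a := by
  classical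
  by_contra hcon
  push Not at hcon
  have := Fintype.ofFinite J
  have s0 : (0 : ℚ) < s := by exact_mod_cast hs.pos
  have hk : ∀ j (a : ℕ) g, g ∈ (u j / v ^ a).ker ↔ u j g = v g ^ a := fun j a g => by
    rw [MonoidHom.mem_ker, MonoidHom.div_apply, MonoidHom.pow_apply, div_eq_one]
  have hcov : ⋃ i ∈ (Finset.univ : Finset J) ×ˢ Finset.range s,
      (1 : N) • ((u i.1 / v ^ i.2).ker : Set N) = Set.univ := by
    refine Set.eq_univ_of_forall fun g => ?_
    obtain ⟨j, a, ha⟩ := h g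
    refine Set.mem_biUnion (x := (j, a % s)) (by simp [Nat.mod_lt _ hs.pos]) ?_
    rw [one_smul, SetLike.mem_coe, hk, ha]
    exact pow_eq_pow_mod a (hv g)
  have h1 := Subgroup.one_le_sum_inv_index_of_leftCoset_cover hcov
  rw [Finset.sum_product] at h1
  have h2 : ∀ j, ∑ a ∈ Finset.range s, (((u j / v ^ a).ker.index : ℚ))⁻¹ ≤ 2 / s := fun j => by
    have h3 : ((Finset.range s).filter fun a => (u j / v ^ a).ker.index = s).card ≤ 1 := by
      refine Finset.card_le_one.2 fun a ha b hb => ?_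
      rw [Finset.mem_filter, Finset.mem_range] at ha hb
      by_contra hab
      have hle : (u j / v ^ a).ker ⊓ (u j / v ^ b).ker ≤ v.ker := fun g hg => by
        have e := ((hk _ _ _).1 hg.1).symm.trans ((hk _ _ _).1 hg.2)
        rcases (Nat.dvd_prime hs).1 (orderOf_dvd_of_pow_eq_one (hv g)) with e1 | e1
        · exact orderOf_eq_one_iff.1 e1
        · exact absurd (pow_injOn_Iio_orderOf (by rw [e1]; exact ha.1) (by rw [e1]; exact hb.1) e) hab
      have i1 : ((u j / v ^ a).ker ⊓ (u j / v ^ b).ker).index ≠ 0 :=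
        Subgroup.index_inf_ne_zero (ha.2 ▸ hs.ne_zero) (hb.2 ▸ hs.ne_zero)
      have i2 := Subgroup.index_dvd_of_le hle
      have i3 := (Nat.le_of_dvd (Nat.pos_of_ne_zero i1) i2).trans Subgroup.index_inf_le
      rw [ha.2, hb.2, Subgroup.index_ker] at i3
      have : Finite v.range := Nat.finite_of_card_ne_zero (by
        rw [← Subgroup.index_ker]; exact ne_zero_of_dvd_ne_zero i1 i2)
      have i4 := Nat.card_le_card_of_injective (fun x => (⟨v (φ x), φ x, rfl⟩ : v.range))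
        fun x y e => hφ (congrArg Subtype.val e)
      nlinarith
    calc _ ≤ ∑ a ∈ Finset.range s, ((if (u j / v ^ a).ker.index = s then (s : ℚ)⁻¹ else 0) + ((s : ℚ) ^ 2)⁻¹) := by
          refine Finset.sum_le_sum fun a _ => ?_
          split_ifs with e
          · rw [e]
            exact le_add_of_nonneg_right (by positivity)
          · rw [zero_add]
            refine (end_index hs _ (fun g => ?_) ?_).resolve_left e
            · rw [MonoidHom.div_apply, MonoidHom.pow_apply, div_pow, hu, ← pow_mul, mul_comm, pow_mul, hv, one_pow,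
                div_one]
            · obtain ⟨g, hg⟩ := hcon j a
              exact ⟨g, fun e => hg ((hk _ _ _).1 e)⟩
      _ ≤ 1 * (s : ℚ)⁻¹ + s * ((s : ℚ) ^ 2)⁻¹ := by
          rw [Finset.sum_add_distrib, ← Finset.sum_filter, Finset.sum_const, Finset.sum_const, Finset.card_range,
            nsmul_eq_mul, nsmul_eq_mul]
          gcongr
          exact_mod_cast h3
      _ = 2 / s := by field_simp; norm_num
  have h4 := h1.trans (Finset.sum_le_sum fun j _ => h2 j)
  rw [Finset.sum_const, Finset.card_univ, nsmul_eq_mul, ← mul_div_assoc, one_le_div s0,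
    ← Nat.card_eq_fintype_card] at h4
  have : s ≤ Nat.card J * 2 := by exact_mod_cast h4
  omega

theorem end_hom {Γ M : Type*} [Group Γ] [CommMonoid M] (N : Subgroup Γ) {s : ℕ} (hs : 0 < s) (v : Γ → M)
    (hv : ∀ g ∈ N, ∀ g' ∈ N, v (g * g') = v g * v g') (h1 : ∀ g ∈ N, v g ^ s = 1) :
    ∃ f : N →* Mˣ, ∀ g, (f g : M) = v g := by
  have e : v 1 = 1 := by
    have := hv 1 N.one_mem 1 N.one_mem
    rw [mul_one] at this
    exact ((IsUnit.of_pow_eq_one (h1 1 N.one_mem) hs.ne').mul_eq_left.1 this.symm)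
  exact ⟨MonoidHom.toHomUnits ⟨⟨fun g => v g, e⟩, fun g g' => hv g g.2 g' g'.2⟩, fun g => rfl⟩

/-- if every element of `N` satisfies one of few proportionality relations, one relation holds on `N` -/
theorem end_cover {Γ M J X : Type*} [Group Γ] [CommMonoid M] [Finite J] (N : Subgroup Γ) {s : ℕ} (hs : s.Prime)
    (v : Γ → M) (u : J → Γ → M) (hv : ∀ g ∈ N, ∀ g' ∈ N, v (g * g') = v g * v g') (hv1 : ∀ g ∈ N, v g ^ s = 1)
    (hu : ∀ j, ∀ g ∈ N, ∀ g' ∈ N, u j (g * g') = u j g * u j g') (hu1 : ∀ j, ∀ g ∈ N, u j g ^ s = 1)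
    (hJ : 2 * Nat.card J < s) (hX : s ^ 2 < Nat.card X) (φ : X → Γ) (hφN : ∀ x, φ x ∈ N)
    (hφ : Function.Injective fun x => v (φ x)) (h : ∀ g ∈ N, ∃ j, ∃ a : ℕ, u j g = v g ^ a) :
    ∃ j, ∃ a : ℕ, ∀ g ∈ N, u j g = v g ^ a := by
  obtain ⟨V, hV⟩ := end_hom N hs.pos v hv hv1
  choose U hU using fun j => end_hom N hs.pos (u j) (hu j) (hu1 j)
  obtain ⟨j, a, ha⟩ := end_cover' hs V U (fun g => Units.ext (by rw [Units.val_pow_eq_pow_val, hV, hv1 g g.2]; rfl))
    (fun j g => Units.ext (by rw [Units.val_pow_eq_pow_val, hU, hu1 j g g.2]; rfl)) hJ hX (fun x => ⟨φ x, hφN x⟩)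
    (fun x y e => hφ (by simpa only [hV] using congrArg Units.val e)) fun g => by
      obtain ⟨j, a, ha⟩ := h g g.2
      exact ⟨j, a, Units.ext (by rw [Units.val_pow_eq_pow_val, hV, hU, ha])⟩
  exact ⟨j, a, fun g hg => by simpa only [Units.val_pow_eq_pow_val, hV, hU] using congrArg Units.val (ha ⟨g, hg⟩)⟩

end Crest.Agent.R18
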