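import Crest.Agent.R18.END.Lem

/-! Row 18 block END: the Frobenius step. -/

set_option autoImplicit false
set_option linter.unusedSectionVars false
open scoped Pointwise NumberField
open IsDedekindDomain Crest.NumberTheoryR

namespace Crest.Agent.R18

variable {F E : Type*} [Field F] [NumberField F] [Field E] [Algebra F E] [IsGalois F E]

theorem end_mul_pow {Γ M : Type*} [Group Γ] [Monoid M] {N : Subgroup Γ} {f : Γ → M} (h1 : f 1 = 1)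
    (hf : ∀ g ∈ N, ∀ g' ∈ N, f (g * g') = f g * f g') {g : Γ} (hg : g ∈ N) (n : ℕ) : f (g ^ n) = f g ^ n := by
  induction n with
  | zero => rw [pow_zero, pow_zero, h1]
  | succ n ih => rw [pow_succ, pow_succ, hf _ (pow_mem hg n) _ hg, ih]

theorem end_frob (S : PreSetup F E) (hR : {q : ℕ | ∃ A : ValuationSubring E, Over A q ∧ ¬ Near S q A}.Finite)
    (ι : E →+* Qb) {s : ℕ} (hs : s.Prime) {N : Subgroup Gam} (hn : N.Normal) (ho : IsOpen (N : Set Gam))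
    (hle : N ≤ S.H) (hμ : ∀ g ∈ N, ∀ ξ : Qb, ξ ^ s = 1 → g ξ = ξ) (hμ' : ∀ g ∈ N, ∀ ξ : E, ξ ^ s = 1 → S.a g ξ = ξ)
    {z : E} (z0 : z ≠ 0) (h1 : ∀ g ∈ N, ∀ δ : E ≃ₐ[F] E, g (ι (δ z) ^ s) = ι (δ z) ^ s)
    (h2 : ∀ g ∈ N, ∀ δ : E ≃ₐ[F] E, S.a g (δ z ^ s) = δ z ^ s) {g : Gam} (hg : g ∈ N) :
    ∃ (γ : Gam) (a : ℕ), ∀ δ : E ≃ₐ[F] E, ι (S.a (γ * g * γ⁻¹) (δ z) / δ z) = (g (ι (δ z)) / ι (δ z)) ^ a := by
  classical
  obtain ⟨W', n', o', f'⟩ := exists_open_fix (F := F) {z} (Set.finite_singleton z)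
  obtain ⟨W₁, n₁, o₁, f₁⟩ := exists_open_fix (F := ℚ) {ι z} (Set.finite_singleton _)
  set W := (N ⊓ (W₁ ⊓ S.pre W')).normalCore
  have hW : IsOpen (W : Set Gam) := open_normalCore _ (ho.inter (o₁.inter (S.pre_open _ o')))
  have hWN : W ≤ N := (Subgroup.normalCore_le _).trans inf_le_left
  have nW : W.Normal := Subgroup.normalCore_normal _
  have w1 : ∀ w ∈ W, ∀ δ : E ≃ₐ[F] E, w (ι (δ z)) = ι (δ z) := fun w hw δ => by
    obtain ⟨τ, hτ⟩ := end_ext ι (ι.comp (δ : E →+* E))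
    exact (hτ z).symm ▸ end_fix_conj n₁ (f₁ _ rfl) τ w (Subgroup.normalCore_le _ hw).2.1
  have w2 : ∀ w ∈ W, ∀ δ : E ≃ₐ[F] E, S.a w (δ z) = δ z := fun w hw δ =>
    end_fix_conj n' (f' _ rfl) δ _ (Subgroup.normalCore_le _ hw).2.2.2
  obtain ⟨q₁, hq₁⟩ := hR.bddAbove
  obtain ⟨q₂, hq₂⟩ := dec1 W hW
  obtain ⟨q₃, hq₃⟩ := exists_bound_unit F z z0
  obtain ⟨q, hq, B, φ, hB, hφN, hφ, -, k, hk⟩ := fd N W hW hWN (fun u _ w hw => nW.conj_mem w hw u) hg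
    (q₁ + q₂ + q₃ + s + 1)
  have hA := hB.comap ι
  obtain ⟨B', σ, f, hB', hσ, hst⟩ : Near S q (B.comap ι) := by
    by_contra hc
    have := hq₁ ⟨_, hA, hc⟩
    omega
  obtain ⟨γ, rfl⟩ := conj_rat hB hB'
  have hφ' := hφ.conj γ
  have hγ := hn.conj_mem φ hφN γ
  obtain rfl : f = 1 := by
    by_contra hf
    exact hσ.2.2.2 1 one_pos (by have := hσ.2.1; omega) ⟨_, hle hγ, by rwa [pow_one]⟩
  have hw := (hq₂ q (by omega) _ hB').1 _ (hφ'.inert_of_frob (pow_one q ▸ hσ.2.2.1))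
  have hσN : σ ∈ N := (N.mul_mem_cancel_left (inv_mem hγ)).1 (hWN hw)
  have hu : ∀ δ : E ≃ₐ[F] E, (B.comap ι).valuation (δ z) = 1 := fun δ => by
    have := hq₃ q (by omega) _ (hA.smul δ⁻¹)
    rwa [← val_smul_eq_one δ, smul_inv_smul] at this
  have hfin : (Set.range fun δ : E ≃ₐ[F] E => δ z).Finite :=
    ((minpoly F z).rootSet_finite E).subset (by
      rintro _ ⟨δ, rfl⟩
      rw [Polynomial.mem_rootSet_of_ne (minpoly.ne_zero (Algebra.IsIntegral.isIntegral z)),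
        Polynomial.aeval_algEquiv, AlgHom.comp_apply, minpoly.aeval, map_zero])
  obtain ⟨a, ha⟩ := dec hA hst hfin.toFinset fun x hx => by
    obtain ⟨δ, rfl⟩ := hfin.mem_toFinset.1 hx
    exact ((B.comap ι).valuation_le_one_iff _).1 (hu δ).le
  refine ⟨γ, a, fun δ => ?_⟩
  have x0 : δ z ≠ 0 := by simpa using z0
  have y0 : ι (δ z) ≠ 0 := by simpa using z0
  have u1 := (end_val_eq ι B _).1 (hu δ)
  have e1 := (end_val_lt ι B _).1 (ha _ (hfin.mem_toFinset.2 ⟨δ, rfl⟩))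
  have e2 := (hφ.pow a).2 _ ((B.valuation_le_one_iff _).1 u1.le)
  have u2 := ((hφ.pow a).1.val_eq (ι (δ z))).trans u1
  have y1 : (φ ^ a) (ι (δ z)) ≠ 0 := (map_ne_zero _).2 y0
  have e3 : ι (S.a σ (δ z)) / (φ ^ a) (ι (δ z)) = 1 := by
    refine hB.eq_one_of_root (m := s) (fun h => ?_) ?_ ?_
    · have := Nat.le_of_dvd hs.pos h
      omega
    · rw [div_pow, ← map_pow, ← map_pow, h2 σ hσN, ← map_pow (φ ^ a), h1 _ (pow_mem hφN a), map_pow,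
        div_self (pow_ne_zero _ y0)]
    · rw [div_sub_one y1, map_div₀, u2, div_one, ← sub_sub_sub_cancel_right _ _ (ι (δ z) ^ q ^ a)]
      rw [map_sub, map_pow] at e1
      exact Valuation.map_sub_lt _ e1 e2
  rw [div_eq_one_iff_eq y1] at e3
  have m1 : ∀ g ∈ N, ∀ g' ∈ N, (g * g') (ι (δ z)) / ι (δ z) = g (ι (δ z)) / ι (δ z) * (g' (ι (δ z)) / ι (δ z)) :=
    fun g hg g' hg' => end_kc_mul y0 (h1 g' hg' δ) (hμ g hg)
  have m2 : ∀ g ∈ N, ∀ g' ∈ N, S.a (g * g') (δ z) / δ z = S.a g (δ z) / δ z * (S.a g' (δ z) / δ z) :=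
    fun g hg g' hg' => S.mul g (hle hg) g' (hle hg') ▸ end_kc_mul x0 (h2 g' hg' δ) (hμ' g hg)
  have p1 := fun g hg => end_mul_pow (f := fun g : Gam => g (ι (δ z)) / ι (δ z)) (g := g) (div_self y0) m1 hg
  have p2 := end_mul_pow (f := fun g : Gam => S.a g (δ z) / δ z) (by rw [S.a_one]; exact div_self x0) m2 hγ k
  have a1 := m2 _ hγ _ (hWN hw)
  have a2 := m1 _ hg _ (hWN hk)
  have a3 := m2 _ (hn.conj_mem g hg γ) _ (hWN (nW.conj_mem _ hk γ))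
  rw [mul_inv_cancel_left, w2 _ hw, div_self x0, mul_one] at a1
  rw [mul_inv_cancel_left, w1 _ hk, div_self y0, mul_one] at a2
  rw [w2 _ (nW.conj_mem _ hk γ), div_self x0, mul_one, conj_mul, mul_inv_cancel_left, ← conj_pow] at a3
  beta_reduce at p1 p2
  rw [← a3, p2, ← a1, map_pow, map_div₀, e3, p1 _ hφN, ← a2, p1 _ hφN, ← pow_mul, ← pow_mul, mul_comm]

end Crest.Agent.R18
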