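import Crest.Agent.R18.FD
import Crest.Agent.R18.Kum

/-! Row 18 block END: auxiliary lemmas. -/

set_option autoImplicit false
set_option linter.unusedSectionVars false
open scoped Pointwise NumberField
open IsDedekindDomain Crest.NumberTheoryR

namespace Crest.Agent.R18

variable {F E : Type*} [Field F] [NumberField F] [Field E] [Algebra F E] [IsGalois F E]

theorem end_emb (F : Type*) [Field F] [NumberField F] [Algebra F E] [IsGalois F E] : Nonempty (E →+* Qb) := by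
  have : CharZero E := charZero_of_injective_algebraMap (algebraMap F E).injective
  have : Algebra.IsAlgebraic ℚ E := Algebra.IsAlgebraic.trans ℚ F E
  exact ⟨(IsAlgClosed.lift : E →ₐ[ℚ] Qb).toRingHom⟩

theorem end_ext {K : Type*} [Field K] (ι ι' : K →+* Qb) : ∃ τ : Gam, ∀ x, τ (ι x) = ι' x := by
  have : CharZero K := ι.charZero
  let _ : Algebra K Qb := ι.toAlgebra
  let φ : Qb →ₐ[ℚ] Qb := ι'.toRatAlgHom.liftNormal Qb
  exact ⟨AlgEquiv.ofBijective φ (Algebra.IsAlgebraic.algHom_bijective φ),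
    fun x => ι'.toRatAlgHom.liftNormal_commutes Qb x⟩

section
variable {k K : Type*} [Field k] [Field K] [Algebra k K] {s : ℕ} {ζ : K}

theorem end_root_pow (hs : s.Prime) (hζ : IsPrimitiveRoot ζ s) (σ : K ≃ₐ[k] K) :
    ∃ c : ℕ, ¬ s ∣ c ∧ ∀ ξ : K, ξ ^ s = 1 → σ ξ = ξ ^ c := by
  have : NeZero s := ⟨hs.ne_zero⟩
  obtain ⟨c, -, hc⟩ := hζ.eq_pow_of_pow_eq_one (ξ := σ ζ) (by rw [← map_pow, hζ.pow_eq_one, map_one])
  refine ⟨c, fun h => hζ.ne_one hs.one_lt (σ.injective ?_), fun ξ hξ => ?_⟩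
  · rw [← hc, map_one, (hζ.pow_eq_one_iff_dvd c).2 h]
  · obtain ⟨i, -, rfl⟩ := hζ.eq_pow_of_pow_eq_one hξ
    rw [map_pow, ← hc, ← pow_mul, ← pow_mul, mul_comm]

theorem end_root_fix (hs : s.Prime) (hζ : IsPrimitiveRoot ζ s) (σ : K ≃ₐ[k] K) : (σ ^ (s - 1)) ζ = ζ := by
  obtain ⟨c, h1, hc⟩ := end_root_pow hs hζ σ
  have h2 : ∀ n : ℕ, (σ ^ n) ζ = ζ ^ c ^ n := fun n => by
    induction n with
    | zero => simp
    | succ n ih => rw [pow_succ', AlgEquiv.mul_apply, ih, map_pow, hc ζ hζ.pow_eq_one, ← pow_mul, pow_succ']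
  rw [h2, pow_eq_pow_of_modEq (Nat.totient_prime hs ▸ Nat.ModEq.pow_totient
    ((Nat.Prime.coprime_iff_not_dvd hs).2 h1).symm) hζ.pow_eq_one, pow_one]

theorem end_fix_all (hs : s.Prime) (hζ : IsPrimitiveRoot ζ s) {σ : K ≃ₐ[k] K} (h : σ ζ = ζ) (ξ : K)
    (hξ : ξ ^ s = 1) : σ ξ = ξ := by
  have : NeZero s := ⟨hs.ne_zero⟩
  obtain ⟨i, -, rfl⟩ := hζ.eq_pow_of_pow_eq_one hξ
  rw [map_pow, h]

theorem end_kc_pow {g : K ≃ₐ[k] K} {w : K} (h0 : w ≠ 0) (h : g (w ^ s) = w ^ s) : (g w / w) ^ s = 1 := by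
  rw [div_pow, ← map_pow, h, div_self (pow_ne_zero _ h0)]

theorem end_kc_mul {g g' : K ≃ₐ[k] K} {w : K} (h0 : w ≠ 0) (h : g' (w ^ s) = w ^ s)
    (hg : ∀ ξ : K, ξ ^ s = 1 → g ξ = ξ) : (g * g') w / w = g w / w * (g' w / w) := by
  rw [← hg _ (end_kc_pow h0 h), map_div₀, AlgEquiv.mul_apply]
  have : g w ≠ 0 := by simpa using h0
  field_simp

theorem end_fix_conj {U : Subgroup (K ≃ₐ[k] K)} (hn : U.Normal) {x : K} (hx : Fix U x) (δ : K ≃ₐ[k] K) :
    Fix U (δ x) := fun g hg => by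
  have := hx _ (hn.conj_mem' g hg δ)
  rw [AlgEquiv.mul_apply, AlgEquiv.mul_apply] at this
  conv_rhs => rw [← this]
  simp [AlgEquiv.aut_inv]

end

/-- discreteness of the value group of a number field -/
theorem end_disc (U : Subgroup (E ≃ₐ[F] E)) (hU : IsOpen (U : Set (E ≃ₐ[F] E))) {B : ValuationSubring E} {r : ℕ}
    (hB : Over B r) {x : E} (h0 : x ≠ 0) (hx : Fix U x) (h1 : B.valuation x ≠ 1) :
    ∃ e : ℕ, 0 < e ∧ ∀ (c : ℤ) (s : ℕ) (t : E), Fix U t → B.valuation (x ^ c) = B.valuation (t ^ s) →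
      (s : ℤ) ∣ c * e := by
  have := numberField_fixedField U hU
  obtain ⟨𝔭, -, h𝔭⟩ := exists_prime_below (algebraMap (IntermediateField.fixedField U) E) B hB
  have he : ∀ a b : IntermediateField.fixedField U, B.valuation (a : E) = B.valuation (b : E) ↔
      𝔭.valuation _ a = 𝔭.valuation _ b := fun a b => by
    rw [le_antisymm_iff, le_antisymm_iff, ← h𝔭, ← h𝔭]
    rfl
  lift x to IntermediateField.fixedField U using (fix_iff_mem U x).1 hx
  have x0 : x ≠ 0 := fun e => h0 (by rw [e]; rfl)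
  refine ⟨(ord 𝔭 x).natAbs, Int.natAbs_pos.2 fun e => h1 ?_, fun c s t ht h => ?_⟩
  · simpa using (he x 1).2 (by rw [map_one]; exact (ord_eq_zero_iff 𝔭 x0).1 e)
  · lift t to IntermediateField.fixedField U using (fix_iff_mem U t).1 ht
    have e : ord 𝔭 (x ^ c) = ord 𝔭 (t ^ (s : ℤ)) := by
      rw [ord, ord, (he (x ^ c) (t ^ (s : ℤ))).1 (by
        rw [zpow_natCast, SubmonoidClass.coe_pow, ← h]
        exact congrArg _ (map_zpow₀ (algebraMap (IntermediateField.fixedField U) E) x c))]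
    rw [ord_zpow, ord_zpow] at e
    rw [Int.natCast_natAbs, ← dvd_abs, abs_mul, abs_abs, ← abs_mul, dvd_abs, e]
    exact dvd_mul_right _ _

/-- the subgroup fixing `ι (K_{G'})` -/
theorem end_U (ι : E →+* Qb) (G' : Subgroup (E ≃ₐ[F] E)) (hG : IsOpen (G' : Set (E ≃ₐ[F] E))) :
    ∃ U : Subgroup Gam, IsOpen (U : Set Gam) ∧ (∀ τ, τ ∈ U ↔ ∀ x, Fix G' x → τ (ι x) = ι x) ∧
      ∀ w, Fix U w → ∃ x, Fix G' x ∧ ι x = w := by
  have := numberField_fixedField G' hG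
  let f : IntermediateField.fixedField G' →ₐ[ℚ] Qb := (ι.comp (IntermediateField.fixedField G').subtype).toRatAlgHom
  have : FiniteDimensional ℚ f.fieldRange := (AlgEquiv.ofInjectiveField f).toLinearEquiv.finiteDimensional
  refine ⟨f.fieldRange.fixingSubgroup, IntermediateField.fixingSubgroup_isOpen _, fun τ => ?_, fun w hw => ?_⟩
  · rw [IntermediateField.mem_fixingSubgroup_iff]
    exact ⟨fun h x hx => h _ ⟨⟨x, (fix_iff_mem G' x).1 hx⟩, rfl⟩, fun h _ ⟨x, hx⟩ =>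
      hx ▸ h x ((fix_iff_mem G' _).2 x.2)⟩
  · rw [fix_iff_mem, InfiniteGalois.fixedField_fixingSubgroup] at hw
    obtain ⟨x, hx⟩ := hw
    exact ⟨x, (fix_iff_mem G' _).2 x.2, hx⟩

theorem end_val_lt {K L : Type*} [Field K] [Field L] (ι : K →+* L) (A : ValuationSubring L) (x : K) :
    (A.comap ι).valuation x < 1 ↔ A.valuation (ι x) < 1 := by
  rw [← not_le, ← not_le, ← map_one (A.comap ι).valuation, val_comap_le, map_one, map_one]

theorem end_val_eq {K L : Type*} [Field K] [Field L] (ι : K →+* L) (A : ValuationSubring L) (x : K) :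
    (A.comap ι).valuation x = 1 ↔ A.valuation (ι x) = 1 := by
  rw [le_antisymm_iff, le_antisymm_iff, ← map_one (A.comap ι).valuation, val_comap_le, val_comap_le, map_one, map_one]

/-- an element of `K_{G'}` exactly one conjugate of which is not a unit at `B` -/
theorem end_y (ι : E →+* Qb) (G' : Subgroup (E ≃ₐ[F] E)) (hG : IsOpen (G' : Set (E ≃ₐ[F] E))) {U : Subgroup Gam}
    (hU : IsOpen (U : Set Gam)) (hU2 : ∀ w, Fix U w → ∃ x, Fix G' x ∧ ι x = w) :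
    ∃ (y : E) (B : ValuationSubring Qb) (r : ℕ), y ≠ 0 ∧ Fix G' y ∧ Over B r ∧ B.valuation (ι y) ≠ 1 ∧
      ∀ τ : Gam, τ ∉ U → B.valuation (τ (ι y)) = 1 := by
  have : CharZero E := ι.charZero
  have ho := open_normalCore U hU
  obtain ⟨q₀, hq₀⟩ := dec1 U.normalCore ho
  obtain ⟨r, hr, B, φ, hB, -, hφ, ⟨k, hk⟩, -⟩ := fd ⊤ U.normalCore ho le_top
    (fun u _ w hw => U.normalCore_normal.conj_mem w hw u) (Subgroup.mem_top 1) q₀
  rw [one_pow, mul_one, inv_mem_iff] at hk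
  obtain ⟨_, -, hv⟩ := varpi G' hG
  obtain ⟨y, y0, hy, h1, h2, -⟩ := hv _ r (hB.comap ι)
  refine ⟨y, B, r, y0, hy, hB, ((end_val_lt ι B y).1 h1).ne, fun τ hτ => ?_⟩
  have h3 := h2 ((τ⁻¹ • B).comap ι) ((hB.smul τ⁻¹).comap ι).ne_top fun ha => hτ (by
    obtain ⟨g, hg, e⟩ := conj_of_agree U hU hB (B := τ⁻¹ • B) fun w hw => by
      obtain ⟨x, hx, rfl⟩ := hU2 w hw
      exact ha x hx
    obtain ⟨a, ha⟩ := (hq₀ r hr B hB).2 φ hφ (τ * g) (stab_iff.2 (by rw [mul_smul, e, smul_inv_smul]))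
    exact (U.mul_mem_cancel_right hg).1 (U.normalCore_le ((U.normalCore.mul_mem_cancel_left
      (inv_mem (pow_mem hk a))).1 ha)))
  rw [end_val_eq, ← val_smul_eq_one τ, smul_inv_smul] at h3
  exact h3

/-- a subgroup of index prime to `s` fixing the `s`-th roots of unity on both sides -/
theorem end_N (hE : IsSolvablyClosed E) (S : PreSetup F E) {N₀ : Subgroup Gam} (hn : N₀.Normal)
    (ho : IsOpen (N₀ : Set Gam)) (hle : N₀ ≤ S.H) {s : ℕ} (hs : s.Prime) (hlt : N₀.index < s) :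
    ∃ N : Subgroup Gam, N ≤ N₀ ∧ N.Normal ∧ IsOpen (N : Set Gam) ∧ (∀ g ∈ N, ∀ ξ : Qb, ξ ^ s = 1 → g ξ = ξ) ∧
      (∀ g ∈ N, ∀ ξ : E, ξ ^ s = 1 → S.a g ξ = ξ) ∧ Nat.Coprime N.index s := by
  have := cz F E
  obtain ⟨ζ, hζ⟩ := sc_prim hE hs.pos
  obtain ⟨ζ', hζ'⟩ := sc_prim sc_qb hs.pos
  set X := N₀ ⊓ (MulAction.stabilizer Gam ζ' ⊓ S.pre (MulAction.stabilizer (E ≃ₐ[F] E) ζ))
  have hX : IsOpen (X.normalCore : Set Gam) := open_normalCore X (ho.inter ((stabilizer_isOpen_of_isIntegral ζ').inter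
    (S.pre_open _ (stabilizer_isOpen_of_isIntegral ζ))))
  have h1 : X.normalCore ≤ N₀ := X.normalCore_le.trans inf_le_left
  refine ⟨X.normalCore, h1, inferInstance, hX, fun g hg => end_fix_all hs hζ' (X.normalCore_le hg).2.1,
    fun g hg => end_fix_all hs hζ (X.normalCore_le hg).2.2.2, ?_⟩
  have := finiteIndex_of_open _ hX
  have := finiteIndex_of_open _ ho
  have := Fact.mk hs
  rw [← Subgroup.relIndex_mul_index h1]
  refine ((Nat.Prime.coprime_iff_not_dvd hs).2 fun h => ?_).symm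
  rcases (Nat.Prime.dvd_mul hs).1 h with h | h
  · obtain ⟨x, hx⟩ := exists_prime_orderOf_dvd_card' (G := N₀ ⧸ X.normalCore.subgroupOf N₀) s h
    obtain ⟨g, rfl⟩ := QuotientGroup.mk_surjective x
    have h2 : (g : N₀ ⧸ X.normalCore.subgroupOf N₀) ^ (s - 1) = 1 := by
      rw [← QuotientGroup.mk_pow, QuotientGroup.eq_one_iff, Subgroup.mem_subgroupOf]
      intro γ
      have h3 := hn.conj_mem g g.2 γ
      rw [SubgroupClass.coe_pow, ← conj_pow]
      refine ⟨pow_mem h3 _, end_root_fix hs hζ' _, pow_mem (hle h3) _, ?_⟩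
      rw [S.a_pow (hle h3)]
      exact end_root_fix hs hζ _
    have h4 := Nat.le_of_dvd (Nat.sub_pos_of_lt hs.one_lt) (hx ▸ orderOf_dvd_of_pow_eq_one h2)
    have := hs.pos
    omega
  · exact absurd (Nat.le_of_dvd (Nat.pos_of_ne_zero Subgroup.FiniteIndex.index_ne_zero) h) hlt.not_ge

end Crest.Agent.R18
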