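import Crest.Agent.R18.END.Frob
import Crest.Agent.R18.END.Cover

/-! Row 18 block END: one level. -/

set_option autoImplicit false
set_option linter.unusedSectionVars false
open scoped Pointwise NumberField
open IsDedekindDomain Crest.NumberTheoryR

namespace Crest.Agent.R18

variable {F E : Type*} [Field F] [NumberField F] [Field E] [Algebra F E] [IsGalois F E]

section
variable {k K : Type*} [Field k] [Field K] [Algebra k K] {s : ℕ}

theorem end_kc_conj {σ g : K ≃ₐ[k] K} {w : K} {c : ℕ} (h0 : w ≠ 0) (h : g (w ^ s) = w ^ s)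
    (hc : ∀ ξ : K, ξ ^ s = 1 → σ ξ = ξ ^ c) : (σ * g * σ⁻¹) (σ w) / σ w = (g w / w) ^ c := by
  rw [← hc _ (end_kc_pow h0 h), map_div₀, ← AlgEquiv.mul_apply, inv_mul_cancel_right, AlgEquiv.mul_apply]

theorem end_kc_eq {g : K ≃ₐ[k] K} {w w' : K} (h0 : w ≠ 0) (h0' : w' ≠ 0) (h : w ^ s = w' ^ s)
    (hg : ∀ ξ : K, ξ ^ s = 1 → g ξ = ξ) : g w / w = g w' / w' := by
  have e := hg (w / w') (by rw [div_pow, h, div_self (pow_ne_zero _ h0')])
  rw [map_div₀, div_eq_div_iff ((map_ne_zero _).2 h0') h0'] at e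
  rw [div_eq_div_iff h0 h0', e, mul_comm]

end

theorem end_level (hE : IsSolvablyClosed E) (S : PreSetup F E)
    (hR : {q : ℕ | ∃ A : ValuationSubring E, Over A q ∧ ¬ Near S q A}.Finite) (ι : E →+* Qb)
    {G' : Subgroup (E ≃ₐ[F] E)} (hn : G'.Normal) (hG : IsOpen (G' : Set (E ≃ₐ[F] E))) (h3 : 3 ≤ G'.index) :
    ∃ τ : Gam, ∀ h ∈ S.H, ∀ x, Fix G' x → h (τ (ι x)) = τ (ι (S.a h x)) := by
  classical
  have := cz F E
  obtain ⟨U, hU, hU1, hU2⟩ := end_U ι G' hG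
  obtain ⟨y, B, r, y0, hy, hB, v1, v2⟩ := end_y ι G' hG hU hU2
  have hP := S.pre_open G' hG
  set N₀ := (U ⊓ S.pre G').normalCore
  have o₀ : IsOpen (N₀ : Set Gam) := open_normalCore _ (hU.inter hP)
  have n₀ : N₀.Normal := Subgroup.normalCore_normal _
  have l1 : N₀ ≤ U := (Subgroup.normalCore_le _).trans inf_le_left
  have l2 : N₀ ≤ S.pre G' := (Subgroup.normalCore_le _).trans inf_le_right
  have fy : Fix N₀ (ι y) := fun g hg => (hU1 g).1 (l1 hg) y hy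
  have iy : ι y ≠ 0 := (map_ne_zero ι).2 y0
  obtain ⟨e, e0, he⟩ := end_disc N₀ o₀ hB iy fy v1
  obtain ⟨s, hs1, hs⟩ := Nat.exists_infinite_primes (N₀.index + e + 2 * (S.pre G').index + 1)
  obtain ⟨N, l3, hN, oN, hμ, hμ', hco⟩ := end_N hE S n₀ o₀ (l2.trans (S.pre_le _)) hs (by omega)
  have l4 : N ≤ S.H := l3.trans (l2.trans (S.pre_le _))
  obtain ⟨z, hz⟩ := sc_root hE hs.pos y
  have z0 : z ≠ 0 := fun h => y0 (by rw [← hz, h, zero_pow hs.ne_zero])
  obtain ⟨ζ, hζ⟩ := sc_prim hE hs.pos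
  obtain ⟨ζ', hζ'⟩ := sc_prim sc_qb hs.pos
  have ind : ∀ (t : Qb) (τ : Gam) (c : ℤ), t ≠ 0 → Fix N t → Fix N₀ (t ^ s) →
      B.valuation (τ (t ^ s)) = B.valuation (ι y ^ c) → (s : ℤ) ∣ c := fun t τ c t0 f1 f2 hv => by
    obtain ⟨t', f3, -, h⟩ := pow_descend oN l3 (hco.coprime_dvd_left (Subgroup.relIndex_dvd_index_of_le l3))
      (pow_ne_zero s t0) f2 f1 (by rw [div_self (pow_ne_zero s t0)]; exact IsOfFinOrder.one)
    rw [h rfl, map_pow] at hv
    refine ((Nat.prime_iff_prime_int.1 hs).dvd_or_dvd (he c s _ (end_fix_conj n₀ f3 τ) hv.symm)).resolve_right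
      fun h => ?_
    have := Nat.le_of_dvd e0 (Int.natCast_dvd_natCast.1 h)
    omega
  choose T hT using fun δ : E ≃ₐ[F] E => end_ext ι (ι.comp (δ : E →+* E))
  replace hT : ∀ δ x, T δ (ι x) = ι (δ x) := hT
  have p1 : ∀ δ : E ≃ₐ[F] E, ι (δ z) ^ s = T δ (ι y) := fun δ => by rw [hT, ← hz, map_pow, map_pow]
  have x0 : ∀ δ : E ≃ₐ[F] E, δ z ≠ 0 := fun δ => (map_ne_zero _).2 z0
  have i0 : ∀ δ : E ≃ₐ[F] E, ι (δ z) ≠ 0 := fun δ => (map_ne_zero _).2 (x0 δ)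
  have h1 : ∀ g ∈ N, ∀ δ : E ≃ₐ[F] E, g (ι (δ z) ^ s) = ι (δ z) ^ s := fun g hg δ => by
    rw [p1]
    exact end_fix_conj n₀ fy _ g (l3 hg)
  have h2' : ∀ g ∈ G', ∀ δ : E ≃ₐ[F] E, g (δ z ^ s) = δ z ^ s := fun g hg δ => by
    rw [← map_pow, hz]
    exact end_fix_conj hn hy δ g hg
  have h2 : ∀ g ∈ N, ∀ δ : E ≃ₐ[F] E, S.a g (δ z ^ s) = δ z ^ s := fun g hg => h2' _ (l2 (l3 hg)).2
  have := finiteIndex_of_open _ hG
  have := finiteIndex_of_open _ hP
  have := Fact.mk hs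
  have := Fintype.ofFinite ((E ≃ₐ[F] E) ⧸ G')
  -- independence of the Kummer characters
  choose ρ hρ hρ' using fun i : (E ≃ₐ[F] E) ⧸ G' => kummer_char N ζ' hζ' (fun g hg => hμ g hg _ hζ'.pow_eq_one)
    (ι (i.out z)) (i0 _) fun g hg => h1 g hg _
  choose φ hφN hφ using chars_surj N ρ hρ fun a ha => funext fun i₀ => by
    have := ind (∏ i, ι (i.out z) ^ (a i).val) (T i₀.out)⁻¹ (a i₀).val
      (Finset.prod_ne_zero_iff.2 fun i _ => pow_ne_zero _ (i0 _)) (fun g hg => by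
        rw [map_prod, Finset.prod_congr rfl fun i _ => by rw [map_pow, hρ' i g hg, mul_pow, ← pow_mul],
          Finset.prod_mul_distrib, Finset.prod_pow_eq_pow_sum, (hζ'.pow_eq_one_iff_dvd _).2, one_mul]
        rw [← ZMod.natCast_eq_zero_iff, ← ha g hg]
        simp [mul_comm]) (fun g hg => by
        rw [← Finset.prod_pow, map_prod]
        refine Finset.prod_congr rfl fun i _ => ?_
        rw [← pow_mul, mul_comm, pow_mul, map_pow, p1, end_fix_conj n₀ fy _ g hg]) (by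
        rw [← Finset.prod_pow, map_prod, map_prod, Finset.prod_eq_single i₀ (fun i _ hi => ?_) (by simp),
          ← pow_mul, mul_comm, pow_mul, p1, map_pow, ← AlgEquiv.mul_apply, inv_mul_cancel, zpow_natCast,
          AlgEquiv.one_apply]
        rw [← pow_mul, mul_comm, pow_mul, p1, map_pow, ← AlgEquiv.mul_apply, map_pow, v2 _ fun hU => hi ?_, one_pow]
        rw [← i.out_eq, ← i₀.out_eq, eq_comm, Quotient.eq, QuotientGroup.leftRel_apply]
        refine mem_of_fix G' (G'.isClosed_of_isOpen hG) _ fun x hx => ?_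
        have := (hU1 _).1 hU x hx
        rw [AlgEquiv.mul_apply, AlgEquiv.aut_inv, AlgEquiv.symm_apply_eq, hT, hT] at this
        rw [AlgEquiv.mul_apply, AlgEquiv.aut_inv, AlgEquiv.symm_apply_eq]
        exact ι.injective this)
    rwa [Int.natCast_dvd_natCast, ← ZMod.natCast_eq_zero_iff, ZMod.natCast_zmod_val] at this
  obtain ⟨j, a, ha⟩ := end_cover (J := Gam ⧸ S.pre G') N hs (fun g (δ : E ≃ₐ[F] E) => g (ι (δ z)) / ι (δ z))
    (fun j g δ => ι (S.a (j.out⁻¹ * g * j.out⁻¹⁻¹) (δ z) / δ z))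
    (fun g hg g' hg' => funext fun δ => end_kc_mul (i0 δ) (h1 g' hg' δ) (hμ g hg))
    (fun g hg => funext fun δ => end_kc_pow (i0 δ) (h1 g hg δ))
    (fun j g hg g' hg' => funext fun δ => by
      rw [← conj_mul, S.mul _ (l4 (hN.conj_mem g hg _)) _ (l4 (hN.conj_mem g' hg' _)),
        end_kc_mul (x0 δ) (h2 _ (hN.conj_mem g' hg' _) δ) (hμ' _ (hN.conj_mem g hg _)), map_mul]
      rfl)
    (fun j g hg => funext fun δ => by
      rw [Pi.pow_apply, ← map_pow, end_kc_pow (x0 δ) (h2 _ (hN.conj_mem g hg _) δ), map_one]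
      rfl)
    (by rw [← Subgroup.index]; omega)
    (by
      rw [Nat.card_fun, Nat.card_zmod, ← Subgroup.index]
      exact Nat.pow_lt_pow_right hs.one_lt (by omega)) φ hφN
    (fun b b' hb => funext fun i => by
      have := congrFun hb i.out
      simp only [hρ' i _ (hφN _), hφ, mul_div_cancel_right₀ _ (i0 _)] at this
      exact ZMod.val_injective s (hζ'.pow_inj (ZMod.val_lt _) (ZMod.val_lt _) this))
    fun g hg => by
      obtain ⟨γ, a, ha⟩ := end_frob S hR ι hs hN oN l4 hμ hμ' z0 h1 h2 hg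
      obtain ⟨p, hp⟩ := QuotientGroup.mk_out_eq_mul (S.pre G') γ⁻¹
      obtain ⟨c, -, hc⟩ := end_root_pow hs hζ (S.a p⁻¹)
      refine ⟨QuotientGroup.mk γ⁻¹, a * c, funext fun δ => ?_⟩
      have g1 := hN.conj_mem g hg γ
      have p2 := inv_mem p.2
      rw [Pi.pow_apply, pow_mul, ← ha, ← map_pow, ← end_kc_conj (x0 δ) (h2 _ g1 δ) hc, hp, ← S.a_inv p2.1,
        ← S.mul _ p2.1 _ (l4 g1), ← S.mul _ (mul_mem p2.1 (l4 g1)) _ (inv_mem p2.1),
        end_kc_eq ((map_ne_zero _).2 (x0 δ)) (x0 δ) (by rw [← map_pow, h2' _ p2.2]) (hμ' _ (hN.conj_mem _ g1 _))]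
      simp only [mul_inv_rev, inv_inv, mul_assoc]
  generalize j.out⁻¹ = γ at ha
  replace ha : ∀ g ∈ N, ∀ δ : E ≃ₐ[F] E, ι (S.a (γ * g * γ⁻¹) (δ z) / δ z) = (g (ι (δ z)) / ι (δ z)) ^ a :=
    fun g hg δ => congrFun (ha g hg) δ
  have na : ¬ s ∣ a := by
    rintro ⟨b, rfl⟩
    obtain ⟨U', o', m', d'⟩ := S.exists_image N l4 oN
    obtain ⟨y', f3, -, h⟩ := pow_descend (U := G') (m := s) (y := z) o' (fun g hg => by
      obtain ⟨h, hh, rfl⟩ := (m' g).1 hg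
      exact (l2 (l3 hh)).2) (hco.coprime_dvd_left ((Subgroup.relIndex_dvd_index_of_le (fun g hg => by
        obtain ⟨h, hh, rfl⟩ := (m' g).1 hg
        exact (l2 (l3 hh)).2)).trans (d'.trans (Subgroup.relIndex_dvd_index_of_le l4)))) y0 hy (fun g hg => by
      obtain ⟨h, hh, rfl⟩ := (m' g).1 hg
      have := ha _ (hN.conj_mem' h hh γ) 1
      rw [pow_mul, end_kc_pow (i0 1) (h1 _ (hN.conj_mem' h hh γ) 1), one_pow, ← map_one ι,
        show γ * (γ⁻¹ * h * γ) * γ⁻¹ = h by group] at this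
      exact (div_eq_one_iff_eq z0).1 (ι.injective this)) (by rw [hz, div_self y0]; exact IsOfFinOrder.one)
    have e1 : ι y' ^ s = ι y := by rw [h hz.symm, map_pow]
    have := ind (ι y') 1 1 (fun h0 => iy (by rw [← e1, h0, zero_pow hs.ne_zero]))
      (fun g hg => (hU1 g).1 (l1 (l3 hg)) y' f3) (e1 ▸ fy) (by rw [e1, zpow_one, AlgEquiv.one_apply])
    exact hs.one_lt.ne' (by exact_mod_cast Int.eq_one_of_dvd_one (by positivity) this)
  refine ⟨γ, fun h hh x hx => ?_⟩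
  by_contra hne
  obtain ⟨c₁, n₁, r₁⟩ := end_root_pow hs hζ (S.a h)
  obtain ⟨c₂, -, r₂⟩ := end_root_pow hs hζ' (h * γ)
  obtain ⟨c₃, n₃, r₃⟩ := end_root_pow hs hζ' γ
  have w1 : (h * γ) (ι z) ≠ 0 := (map_ne_zero _).2 (i0 1)
  have w2 : γ (ι (S.a h z)) ≠ 0 := (map_ne_zero _).2 (i0 _)
  have e1 : (γ (ι (S.a h z)) ^ (a * c₂) / (h * γ) (ι z) ^ (a * c₁ * c₃)) ^ s =
      (γ * T (S.a h)) (ι y) ^ (a * c₂) / (h * γ) (ι y) ^ (a * c₁ * c₃) := by
    rw [div_pow, pow_right_comm _ _ s, pow_right_comm _ (a * c₁ * c₃) s, ← map_pow γ, ← map_pow (h * γ), p1,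
      ← map_pow ι, hz, AlgEquiv.mul_apply γ]
  have := ind (γ (ι (S.a h z)) ^ (a * c₂) / (h * γ) (ι z) ^ (a * c₁ * c₃)) (h * γ)⁻¹ (-(a * c₁ * c₃ : ℕ))
    (div_ne_zero (pow_ne_zero _ w2) (pow_ne_zero _ w1)) (fun g hg => by
      have g1 := hN.conj_mem' g hg (h * γ)
      have g2 := hN.conj_mem' g hg γ
      have g3 := hN.conj_mem' g hg h
      have b1 := end_kc_conj (i0 1) (h1 _ g1 1) r₂
      have b2 := end_kc_conj (i0 (S.a h)) (h1 _ g2 _) r₃
      have b3 := end_kc_conj (x0 1) (h2 _ g3 1) r₁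
      have b4 := ha _ g1 1
      have b5 := ha _ g2 (S.a h)
      rw [show h * γ * ((h * γ)⁻¹ * g * (h * γ)) * (h * γ)⁻¹ = g by group] at b1
      rw [show γ * (γ⁻¹ * g * γ) * γ⁻¹ = g by group] at b2 b5
      rw [← S.a_inv hh, ← S.mul _ hh _ (l4 g3), ← S.mul _ (mul_mem hh (l4 g3)) _ (inv_mem hh),
        show h * (h⁻¹ * g * h) * h⁻¹ = g by group] at b3
      rw [show γ * ((h * γ)⁻¹ * g * (h * γ)) * γ⁻¹ = h⁻¹ * g * h by group] at b4
      simp only [AlgEquiv.one_apply] at b1 b3 b4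
      rw [b3, map_pow, b4] at b5
      have b6 : (g (γ (ι (S.a h z))) / γ (ι (S.a h z))) ^ (a * c₂) =
          (g ((h * γ) (ι z)) / (h * γ) (ι z)) ^ (a * c₁ * c₃) := by
        rw [b1, b2, ← pow_mul, show c₃ * (a * c₂) = a * (c₃ * c₂) by ring, pow_mul, ← b5]
        simp only [← pow_mul]
        congr 1
        ring
      rw [div_pow, div_pow, div_eq_div_iff (pow_ne_zero _ w2) (pow_ne_zero _ w1)] at b6
      rw [map_div₀, map_pow, map_pow, div_eq_div_iff (pow_ne_zero _ ((map_ne_zero _).2 w1)) (pow_ne_zero _ w1), b6,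
        mul_comm]) (by
      rw [e1]
      intro g hg
      rw [map_div₀, map_pow, map_pow, end_fix_conj n₀ fy _ g hg, end_fix_conj n₀ fy _ g hg]) (by
      rw [e1, map_div₀, map_pow, map_pow, ← AlgEquiv.mul_apply, ← AlgEquiv.mul_apply _ (h * γ), inv_mul_cancel,
        map_div₀, map_pow, v2 _ fun hU => hne ?_, one_pow, zpow_neg, zpow_natCast, map_inv₀, one_div,
        AlgEquiv.one_apply]
      have := (hU1 _).1 hU x hx
      rw [AlgEquiv.mul_apply, AlgEquiv.aut_inv, AlgEquiv.symm_apply_eq, AlgEquiv.mul_apply, hT] at this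
      exact this.symm)
  rw [dvd_neg, Int.natCast_dvd_natCast, hs.dvd_mul, hs.dvd_mul] at this
  tauto

end Crest.Agent.R18
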